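import Vale.Agent.P329.H962.Rows

/-!
Rows D1, D2, D3: arrival splitting and null splitting (newest letter first).
-/

namespace Vale.Agent.P329.H818

open H259 (pw pw_zero pw_succ pw_one pw_add pw_succ' pw_mul pw_length)
open H962 (N TL FS Unc AP nc Mem Lc Rt CH Stg Unt rc Bf phi RowB1 RowB2 RowB3 RowC RowD1 RowD2 RowD3)

variable {α : Type} {p : ℕ}

/-! ### Elementary facts -/

theorem N_append (f : List α → ZMod p) (S : List α) :
    ∀ c, N f (S ++ c) = N f c + N (fun X => f (X ++ c)) S := by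
  induction S with
  | nil => intro c; simp [N]
  | cons b S ih =>
    intro c
    change N f (S ++ c) + f (b :: (S ++ c)) = N f c + (N (fun X => f (X ++ c)) S + f (b :: S ++ c))
    rw [ih c, add_assoc]; rfl

theorem N_congr {f g : List α → ZMod p} {S : List α} (h : ∀ B, B ≠ [] → B <:+ S → f B = g B) :
    N f S = N g S := by
  induction S with
  | nil => rfl
  | cons b S ih =>
    rw [N, N, ih fun B hB hs => h B hB (hs.trans (List.suffix_cons b S)),
      h _ (by simp) List.suffix_rfl]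

theorem N_add (f g : List α → ZMod p) (S : List α) : N (fun X => f X + g X) S = N f S + N g S := by
  induction S with
  | nil => simp [N]
  | cons b S ih => rw [N, N, N, ih]; ring

theorem N_smul (a : ZMod p) (f : List α → ZMod p) (S : List α) :
    N (fun X => a * f X) S = a * N f S := by
  induction S with
  | nil => simp [N]
  | cons b S ih => rw [N, N, ih]; ring

theorem N_zero (S : List α) : N (fun _ : List α => (0 : ZMod p)) S = 0 := by
  induction S with
  | nil => rfl
  | cons b V ih => rw [N, ih, add_zero]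

/-- Rooted functions: sums relative to a cut do not depend on the cut. -/
theorem rt_N_eq {w f : List α → ZMod p} (hf : Rt w f) {c c' : List α} (hc : w c ≠ 0) (hc' : w c' ≠ 0)
    (S : List α) : N f (S ++ c) - N f c = N f (S ++ c') - N f c' := by
  rw [N_append, N_append]
  have : N (fun X => f (X ++ c)) S = N (fun X => f (X ++ c')) S :=
    N_congr fun B hB _ => hf c c' B hc hc' hB
  rw [this]; ring

theorem rc_ne {w : List α → ZMod p} {ρ : ZMod p} {X : List α} (h : rc w ρ X ≠ 0) :
    N w X = ρ ∧ w X ≠ 0 := by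
  unfold rc at h
  split_ifs at h with h1
  · exact ⟨h1, h⟩
  · exact absurd rfl h

theorem rc_cut {w : List α → ZMod p} {ρ : ZMod p} {X : List α} (h1 : N w X = ρ) (h2 : w X ≠ 0) :
    rc w ρ X ≠ 0 := by
  unfold rc; rw [if_pos h1]; exact h2

/-! ### Arrival splitting -/

theorem nc_two (w : List α → ZMod p) (ρ : ZMod p) (c : List α) (hc : N w c = ρ) :
    ∀ S, 2 * nc (rc w ρ) S c + (if N w (S ++ c) = ρ then 0 else 1) ≤ nc w S c := by
  intro S
  induction S with
  | nil => simp [nc, hc]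
  | cons b S ih =>
    simp only [nc]
    have hN : N w (b :: S ++ c) = N w (S ++ c) + w (b :: (S ++ c)) := rfl
    by_cases hw : w (b :: (S ++ c)) = 0
    · have hr : rc w ρ (b :: (S ++ c)) = 0 := by
        unfold rc; split_ifs <;> simp_all
      have hN' : N w (b :: S ++ c) = N w (S ++ c) := by rw [hN, hw, add_zero]
      rw [hN', if_pos hw, if_pos hr]
      simpa using ih
    · by_cases hρ : N w (b :: S ++ c) = ρ
      · have hr : rc w ρ (b :: (S ++ c)) ≠ 0 := by
          unfold rc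
          rw [if_pos (by simpa using hρ)]; exact hw
        have hne : N w (S ++ c) ≠ ρ := by
          intro h
          apply hw
          have := hN
          rw [hρ, h] at this
          exact (left_eq_add.mp this)
        rw [if_neg hne] at ih
        rw [if_neg hw, if_neg hr, if_pos hρ]
        omega
      · have hr : rc w ρ (b :: (S ++ c)) = 0 := by
          unfold rc; rw [if_neg (by simpa using hρ)]
        rw [if_neg hw, if_pos hr, if_neg hρ]
        split_ifs at ih <;> omega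

theorem N_rel {w : List α → ZMod p} {ρ : ZMod p} (hRt : Rt w w) {c c' : List α} (hc : rc w ρ c ≠ 0)
    (hc' : rc w ρ c' ≠ 0) (S : List α) : N w (S ++ c) = N w (S ++ c') := by
  have h := rt_N_eq hRt (rc_ne hc).2 (rc_ne hc').2 S
  rw [(rc_ne hc).1, (rc_ne hc').1] at h
  exact sub_left_inj.mp h

theorem rt_rc {w : List α → ZMod p} {ρ : ZMod p} (hw : Rt w w) : Rt (rc w ρ) (rc w ρ) := by
  intro c c' r hc hc' hr
  unfold rc
  rw [hw c c' r (rc_ne hc).2 (rc_ne hc').2 hr, N_rel hw hc hc' r]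

theorem mem_arrive {w g : List α → ZMod p} {ρ : ZMod p} {n : ℕ} (hRt : Rt (rc w ρ) (rc w ρ))
    (hg : ∀ X, g X ≠ 0 → w X ≠ 0) (hM : Mem w (n + 1) g) (hn : 1 ≤ n) :
    Mem (rc w ρ) n fun X => if N w X = ρ then g X else 0 := by
  intro c c' S hc hc' hS
  have hS0 : S ≠ [] := by
    rintro rfl
    simp [nc] at hS
    omega
  obtain ⟨h1, h2⟩ := rc_ne hc
  obtain ⟨h1', h2'⟩ := rc_ne hc'
  have hval : ∀ X, (if N w X = ρ then g X else 0) = if rc w ρ X ≠ 0 then g X else 0 := by
    intro X
    by_cases hX : N w X = ρ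
    · by_cases hg0 : g X = 0
      · simp [hg0]
      · rw [if_pos hX, if_pos (rc_cut hX (hg X hg0))]
    · rw [if_neg hX, if_neg]
      exact fun h => hX (rc_ne h).1
  change (if N w (S ++ c) = ρ then g (S ++ c) else 0) = if N w (S ++ c') = ρ then g (S ++ c') else 0
  rw [hval, hval, hRt c c' S hc hc' hS0]
  split_ifs
  · apply hM c c' S h2 h2'
    have := nc_two w ρ c h1 S
    omega
  · rfl

theorem rowD1 : RowD1 := by
  intro α p _ w hw n g hn hg hM ρ
  exact mem_arrive (rt_rc hw.rt) hg hM hn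

/-! ### Closure lemmas -/

theorem fs_map {σ τ : Type} {f : List α → σ} (h : FS f) (g : σ → τ) : FS (fun X => g (f X)) := by
  have : (Set.range fun X : List α => fun Y => g (f (Y ++ X))) =
      (fun r : List α → σ => fun Y => g (r Y)) '' (Set.range fun X : List α => fun Y => f (Y ++ X)) := by
    rw [← Set.range_comp]; rfl
  unfold FS
  rw [this]
  exact Set.Finite.image _ h

theorem fs_prod {σ τ : Type} {f : List α → σ} {g : List α → τ} (hf : FS f) (hg : FS g) :
    FS (fun X => (f X, g X)) := by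
  apply Set.Finite.subset (Set.Finite.image (fun r : (List α → σ) × (List α → τ) =>
    fun Y => (r.1 Y, r.2 Y)) (Set.Finite.prod hf hg))
  rintro _ ⟨X, rfl⟩
  exact ⟨(fun Y => f (Y ++ X), fun Y => g (Y ++ X)), ⟨⟨X, rfl⟩, ⟨X, rfl⟩⟩, rfl⟩

theorem fs_tail {σ : Type} {f : List α → σ} (hf : FS f) : FS (fun X => f X.tail) := by
  apply Set.Finite.subset (Set.Finite.image (fun r : (List α → σ) × (List α → σ) =>
    fun Y : List α => match Y with
      | [] => r.2 []
      | _ :: Y => r.1 Y) (Set.Finite.prod hf hf))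
  rintro _ ⟨X, rfl⟩
  refine ⟨(fun Y => f (Y ++ X), fun Y => f (Y ++ X.tail)), ⟨⟨X, rfl⟩, ⟨X.tail, rfl⟩⟩, ?_⟩
  funext Y
  cases Y with
  | nil => rfl
  | cons b Y => rfl

/-- A finite state computed from a finite state function is a finite state function. -/
theorem fs_rec {σ τ : Type} [Finite σ] {a : List α → τ} (ha : FS a) {s : List α → σ}
    (step : τ → σ → σ) (hs : ∀ b X, s (b :: X) = step (a (b :: X)) (s X)) : FS s := by
  have key : ∀ Y X X', (fun Y => a (Y ++ X)) = (fun Y => a (Y ++ X')) → s X = s X' →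
      s (Y ++ X) = s (Y ++ X') := by
    intro Y X X' h1 h2
    induction Y with
    | nil => exact h2
    | cons b Y ih =>
      rw [List.cons_append, List.cons_append, hs, hs, ih]
      have := congrFun h1 (b :: Y)
      simp only [List.cons_append] at this
      rw [this]
  classical
  have hfin : (Set.range fun X : List α => ((fun Y => a (Y ++ X)), s X)).Finite := by
    apply Set.Finite.subset (Set.Finite.prod ha (Set.finite_univ (α := σ)))
    rintro _ ⟨X, rfl⟩
    exact ⟨⟨X, rfl⟩, trivial⟩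
  have hinj : ∀ X X', ((fun Y => a (Y ++ X)), s X) = ((fun Y => a (Y ++ X')), s X') →
      (fun Y => s (Y ++ X)) = (fun Y => s (Y ++ X')) := by
    intro X X' h
    rw [Prod.mk.injEq] at h
    funext Y
    exact key Y X X' h.1 h.2
  let pick : (List α → τ) × σ → (List α → σ) := fun q =>
    if h : ∃ X, ((fun Y => a (Y ++ X)), s X) = q then (fun Y => s (Y ++ h.choose)) else fun _ => s []
  apply Set.Finite.subset (Set.Finite.image pick hfin)
  rintro _ ⟨X, rfl⟩
  refine ⟨_, ⟨X, rfl⟩, ?_⟩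
  have hex : ∃ X', ((fun Y => a (Y ++ X')), s X') = ((fun Y => a (Y ++ X)), s X) := ⟨X, rfl⟩
  simp only [pick]
  rw [dif_pos hex]
  exact hinj _ _ hex.choose_spec

theorem fs_N [NeZero p] {h : List α → ZMod p} (hh : FS h) : FS (N h) :=
  fs_rec hh (fun t s => s + t) fun _ _ => rfl

theorem ap_map {σ τ : Type} {w : List α → ZMod p} {f : List α → σ} (h : AP w f) (g : σ → τ) :
    AP w (fun X => g (f X)) := by
  intro v
  obtain ⟨N0, h0⟩ := h v
  exact ⟨N0, fun n hn X Y hU => congrArg g (h0 n hn X Y hU)⟩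

theorem ap_prod {σ τ : Type} {w : List α → ZMod p} {f : List α → σ} {g : List α → τ} (hf : AP w f)
    (hg : AP w g) : AP w (fun X => (f X, g X)) := by
  intro v
  obtain ⟨N0, h0⟩ := hf v
  obtain ⟨N1, h1⟩ := hg v
  refine ⟨max N0 N1, fun n hn X Y hU => ?_⟩
  exact Prod.ext (h0 n (le_trans (le_max_left _ _) hn) X Y hU)
    (h1 n (le_trans (le_max_right _ _) hn) X Y hU)

theorem unc_le {w : List α → ZMod p} {v X : List α} {m n : ℕ} (hmn : m ≤ n)
    (h : Unc w (pw v n) X) : Unc w (pw v m) X := by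
  intro B hs hB
  refine h B ?_ hB
  obtain ⟨k, rfl⟩ := Nat.exists_eq_add_of_le hmn
  rw [add_comm, pw_add]
  exact hs.trans (List.suffix_append _ _)

theorem pw_nil (m : ℕ) : pw ([] : List α) m = [] := by
  induction m with
  | zero => rfl
  | succ m ih => rw [pw_succ, ih]; rfl

theorem ap_tail {σ : Type} {w : List α → ZMod p} {f : List α → σ} (hf : AP w f) :
    AP w (fun X => f X.tail) := by
  intro v
  obtain ⟨N0, h0⟩ := hf v
  refine ⟨N0 + 1, fun n hn X Y hU => ?_⟩
  cases Y with
  | cons b Y =>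
    simpa using h0 n (by omega) X Y hU
  | nil =>
    cases v with
    | nil => rw [pw_nil, pw_nil]
    | cons b v =>
      obtain ⟨m, rfl⟩ : ∃ m, n = m + 1 := ⟨n - 1, by omega⟩
      have := h0 m (by omega) X v (unc_le (Nat.le_succ m) hU)
      rw [pw_succ _ m, pw_succ _ (m + 1)]
      simpa using this

/-! ### Null splitting -/

/-- The cocycle `u (first) - u (last)`, placed at the cuts of `w`. -/
def th (w u : List α → ZMod p) (ρ : ZMod p) (X : List α) : ZMod p :=
  u X * ((if N w X.tail = ρ then 1 else 0) - (if N w X = ρ then 1 else 0))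

/-- The pending part. -/
def et (w u : List α → ZMod p) (ρ : ZMod p) : List α → ZMod p
  | [] => 0
  | b :: X => if rc w ρ (b :: X) = 0 then et w u ρ X + th w u ρ (b :: X) else 0

/-- The null label at the cuts of `rc w ρ`. -/
def ph (w u : List α → ZMod p) (ρ : ZMod p) (X : List α) : ZMod p :=
  if rc w ρ X = 0 then 0 else et w u ρ X.tail + th w u ρ X

theorem th_eq (w u : List α → ZMod p) (ρ : ZMod p) (b : α) (X : List α) :
    th w u ρ (b :: X) = ph w u ρ (b :: X) + et w u ρ (b :: X) - et w u ρ X := by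
  rw [ph, et]
  split_ifs
  · ring
  · simp

theorem N_ph (w u : List α → ZMod p) (ρ : ZMod p) (X : List α) :
    N (th w u ρ) X = N (ph w u ρ) X + et w u ρ X := by
  induction X with
  | nil => simp [N, et]
  | cons b X ih => rw [N, N, ih, th_eq]; ring

theorem et_cut {w u : List α → ZMod p} {ρ : ZMod p} {c : List α} (hc : rc w ρ c ≠ 0) :
    et w u ρ c = 0 := by
  cases c with
  | nil => rfl
  | cons b X => rw [et, if_neg hc]

theorem ph_supp {w u : List α → ZMod p} {ρ : ZMod p} {X : List α} (h : ph w u ρ X ≠ 0) :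
    rc w ρ X ≠ 0 := by
  intro h0
  apply h
  rw [ph, if_pos h0]

theorem fs_th [NeZero p] {w u : List α → ZMod p} (ρ : ZMod p) (hw : FS w) (hu : FS u) :
    FS (th w u ρ) :=
  fs_map (fs_prod hu (fs_prod (fs_tail (fs_N hw)) (fs_N hw))) fun q : ZMod p × ZMod p × ZMod p =>
    q.1 * ((if q.2.1 = ρ then 1 else 0) - (if q.2.2 = ρ then 1 else 0))

theorem fs_rc [NeZero p] {w : List α → ZMod p} (ρ : ZMod p) (hw : FS w) : FS (rc w ρ) :=
  fs_map (fs_prod hw (fs_N hw)) fun q : ZMod p × ZMod p => if q.2 = ρ then q.1 else 0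

theorem fs_et [NeZero p] {w u : List α → ZMod p} (ρ : ZMod p) (hw : FS w) (hu : FS u) :
    FS (et w u ρ) :=
  fs_rec (fs_prod (fs_rc ρ hw) (fs_th ρ hw hu))
    (fun q s => if q.1 = 0 then s + q.2 else 0) fun _ _ => rfl

theorem fs_ph [NeZero p] {w u : List α → ZMod p} (ρ : ZMod p) (hw : FS w) (hu : FS u) :
    FS (ph w u ρ) :=
  fs_map (fs_prod (fs_rc ρ hw) (fs_prod (fs_tail (fs_et ρ hw hu)) (fs_th ρ hw hu)))
    fun q : ZMod p × ZMod p × ZMod p => if q.1 = 0 then 0 else q.2.1 + q.2.2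

theorem rt_th {w u : List α → ZMod p} {ρ : ZMod p} (hw : Rt w w) (hu : Rt w u) :
    Rt (rc w ρ) (th w u ρ) := by
  intro c c' r hc hc' hr
  obtain ⟨b, S, rfl⟩ := List.exists_cons_of_ne_nil hr
  unfold th
  rw [hu c c' _ (rc_ne hc).2 (rc_ne hc').2 hr, N_rel hw hc hc' (b :: S)]
  have : N w (b :: S ++ c).tail = N w (b :: S ++ c').tail := N_rel hw hc hc' S
  rw [this]

theorem et_rel {w u : List α → ZMod p} {ρ : ZMod p} (hw : Rt w w) (hu : Rt w u) {c c' : List α}
    (hc : rc w ρ c ≠ 0) (hc' : rc w ρ c' ≠ 0) (S : List α) :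
    et w u ρ (S ++ c) = et w u ρ (S ++ c') := by
  induction S with
  | nil => rw [List.nil_append, List.nil_append, et_cut hc, et_cut hc']
  | cons b S ih =>
    rw [List.cons_append, List.cons_append, et, et, ih]
    have h1 := rt_th (ρ := ρ) hw hu c c' (b :: S) hc hc' (by simp)
    have h2 := rt_rc (ρ := ρ) hw c c' (b :: S) hc hc' (by simp)
    rw [List.cons_append, List.cons_append] at h1 h2
    rw [h1, h2]

theorem rt_ph {w u : List α → ZMod p} {ρ : ZMod p} (hw : Rt w w) (hu : Rt w u) :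
    Rt (rc w ρ) (ph w u ρ) := by
  intro c c' r hc hc' hr
  obtain ⟨b, S, rfl⟩ := List.exists_cons_of_ne_nil hr
  unfold ph
  rw [rt_th (ρ := ρ) hw hu c c' _ hc hc' hr, rt_rc (ρ := ρ) hw c c' _ hc hc' hr]
  have : et w u ρ (b :: S ++ c).tail = et w u ρ (b :: S ++ c').tail := et_rel hw hu hc hc' S
  rw [this]

theorem unc_tail {w : List α → ZMod p} {b : α} {V X : List α} (h : Unc w (b :: V) X) : Unc w V X :=
  fun B hs hB => h B (hs.trans (List.suffix_cons b V)) hB

theorem unc_head {w : List α → ZMod p} {b : α} {V X : List α} (h : Unc w (b :: V) X) :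
    w (b :: (V ++ X)) = 0 := h (b :: V) List.suffix_rfl (by simp)

theorem et_const1 {w u : List α → ZMod p} {ρ : ZMod p} {Z : List α} :
    ∀ V, Unc (rc w ρ) V Z → N w Z ≠ ρ → et w u ρ (V ++ Z) = et w u ρ Z ∧ N w (V ++ Z) ≠ ρ := by
  intro V
  induction V with
  | nil => intro _ h; exact ⟨rfl, h⟩
  | cons b V ih =>
    intro hU hZ
    obtain ⟨h1, h2⟩ := ih (unc_tail hU) hZ
    have h3 : rc w ρ (b :: (V ++ Z)) = 0 := unc_head hU
    have h4 : N w (b :: (V ++ Z)) ≠ ρ := by
      intro h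
      have h5 : w (b :: (V ++ Z)) = 0 := by
        unfold rc at h3
        rwa [if_pos h] at h3
      rw [N, h5, add_zero] at h
      exact h2 h
    refine ⟨?_, h4⟩
    rw [List.cons_append, et, if_pos h3, h1]
    unfold th
    rw [if_neg h4, if_neg (by simpa using h2)]
    simp

theorem unc_of_rc {w : List α → ZMod p} {ρ : ZMod p} {X : List α} :
    ∀ V, Unc (rc w ρ) V X → N w (V ++ X) = ρ → Unc w V X := by
  intro V
  induction V with
  | nil =>
    intro _ _ B hs hB
    exact absurd (List.suffix_nil.mp hs) hB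
  | cons b V ih =>
    intro hU hN
    have h3 : rc w ρ (b :: (V ++ X)) = 0 := unc_head hU
    rw [List.cons_append] at hN
    have h5 : w (b :: (V ++ X)) = 0 := by
      unfold rc at h3
      rwa [if_pos hN] at h3
    have hN' : N w (V ++ X) = ρ := by
      rw [N, h5, add_zero] at hN
      exact hN
    intro B hs hB
    rcases List.suffix_cons_iff.mp hs with rfl | hs
    · exact h5
    · exact ih (unc_tail hU) hN' B hs hB

theorem et_const2 {w u : List α → ZMod p} {ρ : ZMod p} (hu : ∀ X, w X = 0 → u X = 0) {Z : List α} :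
    ∀ V, Unc w V Z → et w u ρ (V ++ Z) = et w u ρ Z := by
  intro V
  induction V with
  | nil => intro _; rfl
  | cons b V ih =>
    intro hU
    have h5 : w (b :: (V ++ Z)) = 0 := unc_head hU
    have h3 : rc w ρ (b :: (V ++ Z)) = 0 := by unfold rc; split_ifs <;> first | exact h5 | rfl
    rw [List.cons_append, et, if_pos h3, ih (unc_tail hU)]
    unfold th
    rw [hu _ h5]; ring

theorem ap_unc {w G : List α → ZMod p} {v X : List α} {n : ℕ}
    (h : ∀ X Y, Unc w (pw v n) X → G (Y ++ (pw v n ++ X)) = G (Y ++ (pw v (n + 1) ++ X)))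
    (hw : Unc w (pw v n) X) (hU : Unc G (pw v (n + 1)) X) : Unc G v (pw v (n + 1) ++ X) := by
  intro B hs hB
  have h1 := h X B hw
  rw [← h1, ← List.append_assoc]
  refine hU (B ++ pw v n) ?_ (by simp [hB])
  rw [pw_succ]
  obtain ⟨C, rfl⟩ := hs
  exact ⟨C, by simp⟩

theorem ap_et {w u : List α → ZMod p} {ρ : ZMod p} (hw : AP w w) (hrc : AP (rc w ρ) (rc w ρ))
    (hth : AP (rc w ρ) (th w u ρ)) (hu : ∀ X, w X = 0 → u X = 0) :
    AP (rc w ρ) (et w u ρ) := by
  intro v
  obtain ⟨N1, h1⟩ := hw v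
  obtain ⟨N2, h2⟩ := hrc v
  obtain ⟨N3, h3⟩ := hth v
  refine ⟨N1 + N2 + N3 + 1, fun n hn X Y hU => ?_⟩
  obtain ⟨m, rfl⟩ : ∃ m, n = m + 1 := ⟨n - 1, by omega⟩
  have hUm : Unc (rc w ρ) (pw v m) X := unc_le (Nat.le_succ m) hU
  have hA : et w u ρ (pw v (m + 1) ++ X) = et w u ρ (pw v (m + 1 + 1) ++ X) := by
    rw [pw_succ v (m + 1), List.append_assoc v]
    by_cases hN : N w (pw v (m + 1) ++ X) = ρ
    · have hUw : Unc w (pw v (m + 1)) X := unc_of_rc _ hU hN
      exact (et_const2 hu v (ap_unc (h1 m (by omega)) (unc_le (Nat.le_succ m) hUw) hUw)).symm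
    · exact (et_const1 v (ap_unc (h2 m (by omega)) hUm hU) hN).1.symm
  induction Y with
  | nil => simpa using hA
  | cons b Y ih =>
    have e1 := h2 (m + 1) (by omega) X (b :: Y) hU
    have e2 := h3 (m + 1) (by omega) X (b :: Y) hU
    simp only [List.cons_append] at e1 e2 ih ⊢
    rw [et, et, e1, e2, ih]

theorem ap_th {w' w u : List α → ZMod p} (ρ : ZMod p) (hN : AP w' (N w)) (hu : AP w' u) :
    AP w' (th w u ρ) :=
  ap_map (ap_prod hu (ap_prod (ap_tail hN) hN)) fun q : ZMod p × ZMod p × ZMod p =>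
    q.1 * ((if q.2.1 = ρ then 1 else 0) - (if q.2.2 = ρ then 1 else 0))

theorem ap_ph {w' w u : List α → ZMod p} {ρ : ZMod p} (h1 : AP w' (rc w ρ))
    (h2 : AP w' (et w u ρ)) (h3 : AP w' (th w u ρ)) : AP w' (ph w u ρ) :=
  ap_map (ap_prod h1 (ap_prod (ap_tail h2) h3))
    fun q : ZMod p × ZMod p × ZMod p => if q.1 = 0 then 0 else q.2.1 + q.2.2

/-! ### Nullness -/

theorem sum_hit [Fact p.Prime] (x S0 ρ : ZMod p) (h : S0 ≠ 0) :
    ∑ t ∈ Finset.range p, (if x + (t : ZMod p) * S0 = ρ then (1 : ZMod p) else 0) = 1 := by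
  have hp : 0 < p := (Fact.out : p.Prime).pos
  have : NeZero p := ⟨hp.ne'⟩
  rw [Finset.sum_eq_single (((ρ - x) / S0).val)]
  · rw [ZMod.natCast_val, ZMod.cast_id', id, div_mul_cancel₀ _ h, if_pos (by ring)]
  · intro t ht hne
    rw [if_neg]
    intro he
    apply hne
    have : (t : ZMod p) = (ρ - x) / S0 := by
      rw [eq_div_iff h, ← he]; ring
    rw [← this, ZMod.val_cast_of_lt (Finset.mem_range.mp ht)]
  · intro h'
    exact absurd (Finset.mem_range.mpr (ZMod.val_lt _)) h'

theorem pw_ne {v : List α} (hv : v ≠ []) {m : ℕ} (hm : 1 ≤ m) : pw v m ≠ [] := by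
  obtain ⟨k, rfl⟩ : ∃ k, m = k + 1 := ⟨m - 1, by omega⟩
  rw [pw_succ]
  simp [hv]

/-- The cocycle is null on the minimal powers of `rc w ρ`. -/
theorem null [Fact p.Prime] {w u : List α → ZMod p} {ρ : ZMod p} (hRt : Rt w w) (hCH : CH w w)
    (hu : Rt w u) {c v : List α} {j : ℕ} (hc : rc w ρ c ≠ 0) (hj : 2 ≤ j)
    (hj1 : rc w ρ (pw v j ++ c) ≠ 0) (hmin : ∀ i, 1 ≤ i → i < j → rc w ρ (pw v i ++ c) = 0) :
    N (th w u ρ) (pw v j ++ c) = N (th w u ρ) c := by
  classical
  have hv : v ≠ [] := by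
    rintro rfl
    apply hc
    have := hmin 1 le_rfl (by omega)
    rwa [pw_nil] at this
  have hcw : w c ≠ 0 := (rc_ne hc).2
  have hex : ∃ i, 1 ≤ i ∧ w (pw v i ++ c) ≠ 0 := ⟨j, by omega, (rc_ne hj1).2⟩
  obtain ⟨h1, h2⟩ := Nat.find_spec hex
  have h3 : ∀ i, 1 ≤ i → i < Nat.find hex → w (pw v i ++ c) = 0 := by
    intro i hi hlt
    by_contra hne
    exact Nat.find_min hex hlt ⟨hi, hne⟩
  generalize Nat.find hex = j0 at h1 h2 h3
  have hpt : ∀ t, w (pw v (j0 * t) ++ c) ≠ 0 := by
    intro t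
    induction t with
    | zero => simpa using hcw
    | succ t ih =>
      rw [Nat.mul_succ, add_comm, pw_add, List.append_assoc,
        hRt _ c _ ih hcw (pw_ne hv h1)]
      exact h2
  set S0 : ZMod p := N w (pw v j0 ++ c) - N w c with hS0
  have hS : S0 ≠ 0 := by
    intro h0
    rcases Nat.lt_or_ge j0 2 with hlt | hge
    · have hj0 : j0 = 1 := by omega
      subst hj0
      apply rc_cut (w := w) (ρ := ρ) _ h2 (hmin 1 le_rfl (by omega))
      rw [← (rc_ne hc).1]
      exact sub_eq_zero.mp h0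
    · exact hCH c v j0 hcw hge h2 h3 (sub_eq_zero.mp h0)
  have hNt : ∀ t : ℕ, N w (pw v (j0 * t) ++ c) = N w c + t * S0 := by
    intro t
    induction t with
    | zero => simp
    | succ t ih =>
      have h := rt_N_eq hRt (hpt t) hcw (pw v j0)
      rw [← List.append_assoc, ← pw_add, add_comm j0, ← Nat.mul_succ, ih] at h
      have : N w (pw v (j0 * (t + 1)) ++ c) = (N w (pw v j0 ++ c) - N w c) + (N w c + t * S0) := by
        rw [← h]; ring
      rw [this, ← hS0]; push_cast; ring
  -- j = j0 * p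
  have hjp : j = j0 * p := by
    have hr : j % j0 = 0 := by
      by_contra hne
      have h5 : w (pw v (j % j0) ++ (pw v (j0 * (j / j0)) ++ c)) ≠ 0 := by
        rw [← List.append_assoc, ← pw_add, add_comm, Nat.div_add_mod]
        exact (rc_ne hj1).2
      rw [hRt _ c _ (hpt _) hcw (pw_ne hv (by omega))] at h5
      exact h5 (h3 _ (by omega) (Nat.mod_lt _ (by omega)))
    obtain ⟨q, rfl⟩ : ∃ q, j = j0 * q := ⟨j / j0, by
      have := Nat.div_add_mod j j0
      omega⟩
    have h6 : (q : ZMod p) * S0 = 0 := by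
      have := (rc_ne hj1).1
      rw [hNt, (rc_ne hc).1] at this
      exact add_eq_left.mp this
    have h7 : (q : ZMod p) = 0 := by
      rcases mul_eq_zero.mp h6 with h | h
      · exact h
      · exact absurd h hS
    have h8 : p ∣ q := (ZMod.natCast_eq_zero_iff q p).mp h7
    have hq : 0 < q := by
      rcases Nat.eq_zero_or_pos q with rfl | h
      · omega
      · exact h
    have hp2 := (Fact.out : p.Prime).two_le
    by_contra hne
    have hlt : p < q := lt_of_le_of_ne (Nat.le_of_dvd hq h8) fun h => hne (by rw [h])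
    apply rc_cut (w := w) (ρ := ρ) _ (hpt p) (hmin (j0 * p) _ _)
    · rw [hNt, (rc_ne hc).1]; simp
    · exact Nat.one_le_iff_ne_zero.mpr (by positivity)
    · exact Nat.mul_lt_mul_of_pos_left hlt (by omega)
  -- telescoping
  have htel : ∀ t, N (th w u ρ) (pw v (j0 * t) ++ c) = N (th w u ρ) c +
      N (fun X => ∑ s ∈ Finset.range t, th w u ρ (X ++ (pw v (j0 * s) ++ c))) (pw v j0) := by
    intro t
    induction t with
    | zero => simp [N_zero]
    | succ t ih =>
      rw [Nat.mul_succ, add_comm (j0 * t), pw_add, List.append_assoc, N_append, ih, add_assoc,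
        ← N_add]
      congr 1
      exact N_congr fun B _ _ => (Finset.sum_range_succ _ _).symm
  rw [hjp, htel]
  have hz : N (fun X => ∑ s ∈ Finset.range p, th w u ρ (X ++ (pw v (j0 * s) ++ c))) (pw v j0) =
      N (fun _ => (0 : ZMod p)) (pw v j0) := by
    apply N_congr
    intro B hB _
    obtain ⟨b, S, rfl⟩ := List.exists_cons_of_ne_nil hB
    have hrel : ∀ (s : ℕ) (T : List α), N w (T ++ (pw v (j0 * s) ++ c)) = N w (T ++ c) + s * S0 := by
      intro s T
      have h := rt_N_eq hRt (hpt s) hcw T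
      rw [hNt] at h
      have := eq_add_of_sub_eq h
      rw [this]; ring
    have hterm : ∀ s ∈ Finset.range p, th w u ρ (b :: S ++ (pw v (j0 * s) ++ c)) =
        u (b :: S ++ c) * ((if N w (S ++ c) + (s : ZMod p) * S0 = ρ then 1 else 0) -
          (if N w (b :: S ++ c) + (s : ZMod p) * S0 = ρ then 1 else 0)) := by
      intro s _
      unfold th
      rw [hu _ c _ (hpt s) hcw hB, hrel s (b :: S)]
      have : N w (b :: S ++ (pw v (j0 * s) ++ c)).tail = N w (S ++ c) + s * S0 := hrel s S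
      rw [this]
    rw [Finset.sum_congr rfl hterm, ← Finset.mul_sum, Finset.sum_sub_distrib, sum_hit _ _ _ hS,
      sum_hit _ _ _ hS]
    ring
  rw [hz, N_zero, add_zero]

/-- The null label. -/
theorem null_ph [Fact p.Prime] {w u : List α → ZMod p} {ρ : ZMod p} (hRt : Rt w w) (hCH : CH w w)
    (hu : Rt w u) {c v : List α} {j : ℕ} (hc : rc w ρ c ≠ 0) (hj : 2 ≤ j)
    (hj1 : rc w ρ (pw v j ++ c) ≠ 0) (hmin : ∀ i, 1 ≤ i → i < j → rc w ρ (pw v i ++ c) = 0) :
    N (ph w u ρ) (pw v j ++ c) = N (ph w u ρ) c := by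
  have h := null hRt hCH hu hc hj hj1 hmin
  rw [N_ph, N_ph, et_cut hc, et_cut hj1, add_zero, add_zero] at h
  exact h

/-- The perturbed charges are units. -/
theorem unt_ph [Fact p.Prime] {w u : List α → ZMod p} (ρ : ZMod p) (hw : Stg w)
    (hw' : Stg (rc w ρ)) (hN : AP (rc w ρ) (N w)) (hu' : AP (rc w ρ) u) (hFu : FS u) (hu : Rt w u)
    (hu0 : ∀ X, w X = 0 → u X = 0) (a : ZMod p) :
    Unt (rc w ρ) (fun X => rc w ρ X + a * ph w u ρ X) := by
  have hth := ap_th ρ hN hu'
  have het := ap_et hw.ap hw'.ap hth hu0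
  have hph : AP (rc w ρ) (ph w u ρ) := ap_ph hw'.ap het hth
  refine ⟨?_, ?_, ?_, ?_, ?_⟩
  · intro X h h0
    apply h
    have : ph w u ρ X = 0 := by
      by_contra hne
      exact ph_supp hne h0
    change rc w ρ X + a * ph w u ρ X = 0
    rw [h0, this]; ring
  · exact fs_map (fs_prod hw'.fs (fs_ph ρ hw.fs hFu)) fun q : ZMod p × ZMod p => q.1 + a * q.2
  · exact ap_map (ap_prod hw'.ap hph) fun q : ZMod p × ZMod p => q.1 + a * q.2
  · intro c c' r hc hc' hr
    change rc w ρ (r ++ c) + a * ph w u ρ (r ++ c) = rc w ρ (r ++ c') + a * ph w u ρ (r ++ c')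
    rw [hw'.rt c c' r hc hc' hr, rt_ph hw.rt hu c c' r hc hc' hr]
  · intro c v j hc hj hj1 hmin
    rw [N_add, N_add, N_smul, N_smul, null_ph hw.rt hw.ch hu hc hj hj1 hmin]
    intro h
    exact hw'.ch c v j hc hj hj1 hmin (add_right_cancel h)

/-- The pending part is local. -/
theorem lc_et [NeZero p] {w u : List α → ZMod p} (ρ : ZMod p) (hw : Stg w) (hw' : AP (rc w ρ) (rc w ρ))
    (hN : AP (rc w ρ) (N w)) (hu' : AP (rc w ρ) u) (hFu : FS u) (hu : Rt w u)
    (hu0 : ∀ X, w X = 0 → u X = 0) : Lc (rc w ρ) (et w u ρ) :=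
  ⟨fs_et ρ hw.fs hFu, ap_et hw.ap hw' (ap_th ρ hN hu') hu0, 0,
    fun _ _ S hc hc' _ => et_rel hw.rt hu hc hc' S⟩

/-- Null splitting of the sum of a plain label. -/
theorem N_split [NeZero p] {w g u : List α → ZMod p} (hg : ∀ X, g X = u X * w X) (X : List α) :
    N g X = -∑ ρ : ZMod p, ρ * (N (ph w u ρ) X + et w u ρ X) := by
  have h1 : ∀ (ρ : ZMod p) (X : List α), N (ph w u ρ) X + et w u ρ X = N (th w u ρ) X :=
    fun ρ X => (N_ph w u ρ X).symm
  simp only [h1]
  clear h1
  induction X with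
  | nil => simp [N]
  | cons b X ih =>
    simp only [N]
    rw [ih]
    have h2 : ∑ ρ : ZMod p, ρ * (N (th w u ρ) X + th w u ρ (b :: X)) =
        (∑ ρ : ZMod p, ρ * N (th w u ρ) X) + ∑ ρ : ZMod p, ρ * th w u ρ (b :: X) := by
      rw [← Finset.sum_add_distrib]
      exact Finset.sum_congr rfl fun ρ _ => by ring
    have h3 : ∑ ρ : ZMod p, ρ * th w u ρ (b :: X) = u (b :: X) * (N w X - N w (b :: X)) := by
      unfold th
      have e : ∀ x : ZMod p, ∑ ρ : ZMod p, ρ * (if x = ρ then (1 : ZMod p) else 0) = x := by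
        intro x; simp
      calc ∑ ρ : ZMod p, ρ * (u (b :: X) * ((if N w (b :: X).tail = ρ then 1 else 0) -
            (if N w (b :: X) = ρ then 1 else 0)))
          = u (b :: X) * (∑ ρ : ZMod p, ρ * (if N w X = ρ then (1 : ZMod p) else 0)) -
            u (b :: X) * (∑ ρ : ZMod p, ρ * (if N w (b :: X) = ρ then (1 : ZMod p) else 0)) := by
            rw [Finset.mul_sum, Finset.mul_sum, ← Finset.sum_sub_distrib]
            exact Finset.sum_congr rfl fun ρ _ => by rw [List.tail_cons]; ring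
        _ = _ := by rw [e, e]; ring
    rw [h2, h3, hg]
    have h4 : N w (b :: X) = N w X + w (b :: X) := rfl
    rw [h4]; ring

/-! ### The literal forms -/

/-- `u` restricted to the cuts of `w` -/
def ct (w u : List α → ZMod p) (X : List α) : ZMod p := if w X = 0 then 0 else u X

theorem ct_zero {w u : List α → ZMod p} (X : List α) (h : w X = 0) : ct w u X = 0 := by
  unfold ct; rw [if_pos h]

theorem et_at {w u : List α → ZMod p} {ρ : ZMod p} : ∀ X, N w X = ρ → et w (ct w u) ρ X = 0 := by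
  intro X
  induction X with
  | nil => intro _; rfl
  | cons a X ih =>
    intro h
    by_cases hw : w (a :: X) = 0
    · have hr : rc w ρ (a :: X) = 0 := by unfold rc; rw [if_pos h, hw]
      have hN : N w X = ρ := by rw [N, hw, add_zero] at h; exact h
      rw [et, if_pos hr, ih hN]
      unfold th
      rw [ct_zero _ hw]; simp
    · exact et_cut (rc_cut h hw)

theorem Bf_eq (w u : List α → ZMod p) (ρ : ZMod p) : ∀ X, Bf w u ρ X = et w (ct w u) ρ X := by
  intro X
  induction X with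
  | nil => rfl
  | cons a X ih =>
    rw [Bf]
    by_cases hw : w (a :: X) = 0
    · have hr : rc w ρ (a :: X) = 0 := by unfold rc; split_ifs <;> first | exact hw | rfl
      rw [if_pos hw, et, if_pos hr, ih]
      unfold th
      rw [ct_zero _ hw]; simp
    · rw [if_neg hw]
      by_cases h1 : N w (a :: X) = ρ
      · rw [if_pos h1, et_cut (rc_cut h1 hw)]
      · have hr : rc w ρ (a :: X) = 0 := by unfold rc; rw [if_neg h1]
        rw [if_neg h1, et, if_pos hr]
        unfold th
        rw [if_neg h1, List.tail_cons]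
        by_cases h2 : N w X = ρ
        · rw [if_pos h2, if_pos h2, et_at X h2]
          unfold ct
          rw [if_neg hw]; ring
        · rw [if_neg h2, if_neg h2, ih]; ring

theorem phi_eq (w u : List α → ZMod p) (ρ : ZMod p) (a : α) (X : List α) :
    phi w u ρ (a :: X) = ph w (ct w u) ρ (a :: X) := by
  rw [phi, ph, Bf_eq]
  by_cases hr : rc w ρ (a :: X) = 0
  · rw [if_pos hr, if_pos hr]
  · rw [if_neg hr, if_neg hr, List.tail_cons]
    obtain ⟨h1, h2⟩ := rc_ne hr
    have h3 : N w X ≠ ρ := by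
      intro h
      apply h2
      rw [N, h] at h1
      exact add_eq_left.mp h1
    unfold th ct
    rw [if_neg h2, if_pos h1, List.tail_cons, if_neg h3]; ring

theorem rowD2 : RowD2 := by
  intro α p _ w u X
  have h : N (fun X => w X * u X) X = -∑ ρ : ZMod p, ρ * (N (ph w (ct w u) ρ) X + et w (ct w u) ρ X) :=
    N_split (w := w) (u := ct w u) (fun X => by
      unfold ct
      by_cases hw : w X = 0
      · rw [if_pos hw, hw]; ring
      · rw [if_neg hw]; ring) X
  rw [h]
  congr 1
  refine Finset.sum_congr rfl fun ρ _ => ?_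
  rw [Bf_eq]
  congr 2
  refine N_congr fun B hB _ => ?_
  obtain ⟨b, S, rfl⟩ := List.exists_cons_of_ne_nil hB
  exact (phi_eq w u ρ b S).symm

theorem rowD3 (hB1 : RowB1) (hB2 : RowB2) (hB3 : RowB3) (hC : RowC) : RowD3 := by
  intro α p _ w u hw hLu hRu ρ
  obtain ⟨-, -, -, -, -, -, hC7, hC8, -, -⟩ := hC α p w
  have hUw : Unt w w := hC8 hw
  have hw' : Stg (rc w ρ) := hB1 α p w w hw hUw ρ
  have hN : AP (rc w ρ) (N w) := (hB3 α p w w hw hUw ρ).2.1
  have hAw : AP (rc w ρ) w := (hB2 α (ZMod p) p w w hw hUw ρ w (hC7 hw)).2.1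
  have hAu : AP (rc w ρ) u := (hB2 α (ZMod p) p w w hw hUw ρ u hLu).2.1
  have hFu : FS (ct w u) :=
    fs_map (fs_prod hw.fs hLu.1) fun q : ZMod p × ZMod p => if q.1 = 0 then 0 else q.2
  have hAc : AP (rc w ρ) (ct w u) :=
    ap_map (ap_prod hAw hAu) fun q : ZMod p × ZMod p => if q.1 = 0 then 0 else q.2
  have hRc : Rt w (ct w u) := by
    intro c c' r hc hc' hr
    unfold ct
    rw [hw.rt c c' r hc hc' hr, hRu c c' r hc hc' hr]
  have hB : Bf w u ρ = et w (ct w u) ρ := funext (Bf_eq w u ρ)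
  have hP : phi w u ρ = ph w (ct w u) ρ := by
    funext X
    cases X with
    | nil =>
      have : rc w ρ [] = 0 := by
        unfold rc; split_ifs
        · exact hw.nil
        · rfl
      rw [phi, ph, if_pos this]
    | cons a X => exact phi_eq w u ρ a X
  rw [hB, hP]
  have hth := ap_th (w' := rc w ρ) ρ hN hAc
  have het := ap_et hw.ap hw'.ap hth ct_zero
  have hph : AP (rc w ρ) (ph w (ct w u) ρ) := ap_ph hw'.ap het hth
  refine ⟨lc_et ρ hw hw'.ap hN hAc hFu hRc ct_zero, ⟨fs_ph ρ hw.fs hFu, hph, 1, ?_⟩,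
    fun lam => unt_ph ρ hw hw' hN hAc hFu hRc ct_zero lam⟩
  intro c c' S hc hc' hS
  have hS0 : S ≠ [] := by
    rintro rfl
    simp [nc] at hS
  exact rt_ph hw.rt hRc c c' S hc hc' hS0

end Vale.Agent.P329.H818
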